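import Mathlib
import Vale.Agent.P183.Main

/-! The seven-element lattice `L7` (bottom, four atoms `a b c d`, the element `a ∨ b`, top) is the
congruence lattice of a finite algebra: the set of the 1140 three-element subsets of the
projective line over the field with 19 elements, with five unary operations generating the
action of PGL(2,19). -/

namespace Vale.Agent.Results.P183.SevenElementLattice

open Vale.Agent.P183

/-- The seven-element lattice: the sets `∅, {0}, {1}, {2}, {3}, {0,1}, {0,1,2,3}` ordered by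
inclusion.  It has four atoms; two of them join to a coatom, the other two are coatoms. -/
abbrev L7 : Type :=
  {s : Finset (Fin 4) //
    s ∈ ({∅, {0}, {1}, {2}, {3}, {0, 1}, Finset.univ} : Finset (Finset (Fin 4)))}

def pr : Fin 4 → Nat := ![523, 1037, 386, 557]

open Classical in
noncomputable def Q (r : Setoid (Fin N)) : Finset (Fin 4) :=
  Finset.univ.filter (fun i => Rel r 0 (pr i))

theorem mem_Q {r : Setoid (Fin N)} {i : Fin 4} : i ∈ Q r ↔ Rel r 0 (pr i) := by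
  simp [Q]

theorem fam_lemma0 : ∀ s : Finset (Fin 4),
    ((0 ∈ s ∧ 2 ∈ s → s = Finset.univ) ∧ (0 ∈ s ∧ 3 ∈ s → s = Finset.univ) ∧
    (1 ∈ s ∧ 2 ∈ s → s = Finset.univ) ∧ (1 ∈ s ∧ 3 ∈ s → s = Finset.univ) ∧
    (2 ∈ s ∧ 3 ∈ s → s = Finset.univ)) →
    s ∈ ({∅, {0}, {1}, {2}, {3}, {0, 1}, Finset.univ} : Finset (Finset (Fin 4))) := by
  decide

theorem fam_lemma (s : Finset (Fin 4))
    (h1 : 0 ∈ s → 2 ∈ s → s = Finset.univ) (h2 : 0 ∈ s → 3 ∈ s → s = Finset.univ)
    (h3 : 1 ∈ s → 2 ∈ s → s = Finset.univ) (h4 : 1 ∈ s → 3 ∈ s → s = Finset.univ)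
    (h5 : 2 ∈ s → 3 ∈ s → s = Finset.univ) :
    s ∈ ({∅, {0}, {1}, {2}, {3}, {0, 1}, Finset.univ} : Finset (Finset (Fin 4))) :=
  fam_lemma0 s ⟨fun h => h1 h.1 h.2, fun h => h2 h.1 h.2, fun h => h3 h.1 h.2,
    fun h => h4 h.1 h.2, fun h => h5 h.1 h.2⟩

theorem pr_lt (i : Fin 4) : pr i < N := by
  fin_cases i <;> decide

theorem Q_univ {r : Setoid (Fin N)} (hr : alg.IsCongruence r) (h : Rel r 0 1) :
    Q r = Finset.univ := by
  ext i
  simp only [mem_Q, Finset.mem_univ, iff_true]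
  exact all_of_one hr h _ (pr_lt i)

theorem Q_fam {r : Setoid (Fin N)} (hr : alg.IsCongruence r) :
    Q r ∈ ({∅, {0}, {1}, {2}, {3}, {0, 1}, Finset.univ} : Finset (Finset (Fin 4))) := by
  apply fam_lemma
  · intro h1 h2
    exact Q_univ hr (bad_gen hr bad02_ok (mem_Q.mp h1) (mem_Q.mp h2))
  · intro h1 h2
    exact Q_univ hr (bad_gen hr bad03_ok (mem_Q.mp h1) (mem_Q.mp h2))
  · intro h1 h2
    exact Q_univ hr (bad_gen hr bad12_ok (mem_Q.mp h1) (mem_Q.mp h2))
  · intro h1 h2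
    exact Q_univ hr (bad_gen hr bad13_ok (mem_Q.mp h1) (mem_Q.mp h2))
  · intro h1 h2
    exact Q_univ hr (bad_gen hr bad23_ok (mem_Q.mp h1) (mem_Q.mp h2))

theorem prl_pr {m q : Nat} (h : q ∈ prl m) : ∃ i : Fin 4, q = pr i := by
  rcases prl_sub h with h | h | h | h
  · exact ⟨0, h⟩
  · exact ⟨1, h⟩
  · exact ⟨2, h⟩
  · exact ⟨3, h⟩

theorem Q_le_iff {r r' : Setoid (Fin N)} (hr : alg.IsCongruence r)
    (hr' : alg.IsCongruence r') : Q r ≤ Q r' ↔ r ≤ r' := by
  constructor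
  · intro h
    apply le_of_base hr hr'
    intro c hc
    have hcN : c < N := hc.2.1
    by_cases h0 : c = 0
    · subst h0; exact Rel.refl r' hcN
    · obtain ⟨m, hm⟩ := lemA c (Nat.pos_of_ne_zero h0) hcN
      rw [hm r' hr']
      intro q hq
      obtain ⟨i, rfl⟩ := prl_pr hq
      exact mem_Q.mp (h (mem_Q.mpr ((hm r hr).mp hc _ hq)))
  · intro h i hi
    obtain ⟨ha, hb, h3⟩ := mem_Q.mp hi
    exact mem_Q.mpr ⟨ha, hb, h h3⟩

theorem Q_kerS (LB : Nat) (s : Finset (Fin 4))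
    (h : ∀ i : Fin 4, (look LB 0 = look LB (pr i)) ↔ i ∈ s) : Q (kerS LB) = s := by
  ext i
  rw [mem_Q, rel_kerS, ← h i]
  constructor
  · exact fun h => h.2.2
  · exact fun h => ⟨by decide, pr_lt i, h⟩

theorem Q_surj (s : Finset (Fin 4))
    (hs : s ∈ ({∅, {0}, {1}, {2}, {3}, {0, 1}, Finset.univ} : Finset (Finset (Fin 4)))) :
    ∃ r : Setoid (Fin N), alg.IsCongruence r ∧ Q r = s := by
  simp only [Finset.mem_insert, Finset.mem_singleton] at hs
  rcases hs with h | h | h | h | h | h | h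
  · refine ⟨⊥, bot_cong, ?_⟩
    rw [h]
    ext i
    simp only [mem_Q, rel_bot, Finset.notMem_empty, iff_false, not_and]
    intro _ _
    fin_cases i <;> decide
  · exact ⟨kerS LB1, kerS_cong _ chkLB1_ok, by rw [h]; exact Q_kerS _ _ (by decide +kernel)⟩
  · exact ⟨kerS LB2, kerS_cong _ chkLB2_ok, by rw [h]; exact Q_kerS _ _ (by decide +kernel)⟩
  · exact ⟨kerS LB4, kerS_cong _ chkLB4_ok, by rw [h]; exact Q_kerS _ _ (by decide +kernel)⟩
  · exact ⟨kerS LB5, kerS_cong _ chkLB5_ok, by rw [h]; exact Q_kerS _ _ (by decide +kernel)⟩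
  · exact ⟨kerS LB3, kerS_cong _ chkLB3_ok, by rw [h]; exact Q_kerS _ _ (by decide +kernel)⟩
  · refine ⟨⊤, top_cong, ?_⟩
    rw [h]
    ext i
    simp only [mem_Q, rel_top, Finset.mem_univ, iff_true]
    exact ⟨by decide, pr_lt i⟩

/-- The seven-element lattice `L7` is isomorphic to the congruence lattice of a finite algebra. -/
theorem result : Representable L7 := by
  refine ⟨alg, ⟨?_⟩⟩
  let f : {r : Setoid alg.carrier // alg.IsCongruence r} → L7 := fun r => ⟨Q r.1, Q_fam r.2⟩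
  have hf : ∀ a b, f a ≤ f b ↔ a ≤ b := fun a b => Q_le_iff a.2 b.2
  have hs : Function.Surjective f := by
    intro s
    obtain ⟨r, hr, hq⟩ := Q_surj s.1 s.2
    exact ⟨⟨r, hr⟩, Subtype.ext hq⟩
  exact RelIso.ofSurjective (OrderEmbedding.ofMapLEIff f hf) hs

end Vale.Agent.Results.P183.SevenElementLattice
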